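import Vale.Agent.Lib.P230.Lin.Defs
import Vale.Agent.Lib.P230.Lin.Params3

/-! MODULE SD: the numerics of the skew route. `L = clog 2 (4 n)`, so `4 n ≤ 2 ^ L` and
`2 (12 t n) ≤ 2 ^ (2 L)`; `t` is the least integer with `(1601/1000)^t ≥ 10^12 (2 L)`, so the number of
leaves is at least `400000 (2 L)`, `t ≤ 3 s + 53` with `L ≤ 2^s`, and
`(208/125)^768 ≤ (1601/1000)^831`, with `13/12 * 768 = 832`. -/

set_option autoImplicit false
set_option exponentiation.threshold 2000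

open Filter Topology

namespace Vale.Agent.Lib.P230.Skew13

open Vale.Agent.Lib.P230.Lin

namespace Params13Aux

open Vale.Agent.Lib.P230 Vale.Agent.Lib.P230.ParamsAux Vale.Agent.Lib.P230.Ball.ParamsBallAux
open Vale.Agent.Lib.P230.Lin.Params3Aux

lemma bigL13 (L : ℕ) (hL : 200 ≤ L) : 2 ^ 90 * (L ^ 3 * (3 * L + 53)) ≤ 2 ^ (L - 3) := by
  induction L, hL using Nat.le_induction with
  | base => norm_num
  | succ L hL ih =>
    have h1 : L + 1 - 3 = (L - 3) + 1 := by omega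
    rw [h1, pow_succ]
    have h2 : (L + 1) ^ 3 * (3 * (L + 1) + 53) ≤ 2 * (L ^ 3 * (3 * L + 53)) := by
      obtain ⟨k, rfl⟩ : ∃ k, L = k + 200 := ⟨L - 200, by omega⟩
      ring_nf
      omega
    calc 2 ^ 90 * ((L + 1) ^ 3 * (3 * (L + 1) + 53))
        ≤ 2 ^ 90 * (2 * (L ^ 3 * (3 * L + 53))) := Nat.mul_le_mul_left _ h2
      _ = (2 ^ 90 * (L ^ 3 * (3 * L + 53))) * 2 := by ring
      _ ≤ 2 ^ (L - 3) * 2 := Nat.mul_le_mul_right _ ih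

lemma arith13 {d L t N : ℕ} (hdbig : 320000 * (2 ^ 59 * L ^ 3 * t) ≤ d)
    (hL : 1 ≤ L) (ht : 1 ≤ t) (h2t : 2 ^ t ≤ 2 ^ 59 * L ^ 3)
    (hN : 400000 * L ≤ N) :
    L * t ≤ mstar2 d / 16 ∧ 1 + L * d + L * t * 2 ^ t < (mstar2 d / 4) * N ∧ 1 ≤ mstar2 d := by
  have hmst : mstar2 d = d / 20000 := rfl
  rw [hmst]
  generalize hm : d / 20000 = m
  obtain ⟨H, hH⟩ : ∃ H, H = 2 ^ 59 * L ^ 3 * t := ⟨_, rfl⟩
  have hH1 : 1 ≤ H := by
    rw [hH]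
    exact Nat.mul_pos (Nat.mul_pos (by norm_num) (Nat.pow_pos hL)) ht
  have hLt : L * t ≤ H := by
    rw [hH]
    have h1 : L ≤ 2 ^ 59 * L ^ 3 := by
      have h2 : L ≤ L ^ 3 := by
        calc L = L ^ 1 := (pow_one L).symm
          _ ≤ L ^ 3 := Nat.pow_le_pow_right hL (by norm_num)
      calc L ≤ L ^ 3 := h2
        _ ≤ 2 ^ 59 * L ^ 3 := Nat.le_mul_of_pos_left _ (by norm_num)
    exact Nat.mul_le_mul_right _ h1
  have hm16 : 16 * H ≤ m := by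
    rw [← hm, Nat.le_div_iff_mul_le (by norm_num)]
    rw [hH]
    calc 16 * (2 ^ 59 * L ^ 3 * t) * 20000 = 320000 * (2 ^ 59 * L ^ 3 * t) := by ring
      _ ≤ d := hdbig
  have ha' : H ≤ m / 16 := by
    rw [Nat.le_div_iff_mul_le (by norm_num)]
    omega
  refine ⟨le_trans hLt ha', ?_, by omega⟩
  generalize ha : m / 16 = a at *
  have ha1 : 1 ≤ a := by omega
  have hb : 4 * a ≤ m / 4 := by omega
  generalize m / 4 = b at *
  have hm1 : m + 1 ≤ 16 * (a + 1) := by omega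
  have hd3 : d < (m + 1) * 20000 := by
    rw [← hm]
    omega
  have hd5 : d < 640000 * a := by
    have h1 : (m + 1) * 20000 ≤ 640000 * a := by omega
    omega
  have hLd : 1 + L * d ≤ 640000 * (a * L) := by
    have h3 : L * (d + 1) ≤ L * (640000 * a) := Nat.mul_le_mul_left _ hd5
    have h4 : L * (d + 1) = L * d + L := by ring
    have h5 : L * (640000 * a) = 640000 * (a * L) := by ring
    omega
  have hLt2 : L * t * 2 ^ t ≤ a * L := by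
    calc L * t * 2 ^ t ≤ L * t * (2 ^ 59 * L ^ 3) := Nat.mul_le_mul_left _ h2t
      _ = H * L := by rw [hH]; ring
      _ ≤ a * L := Nat.mul_le_mul_right _ ha'
  have hpos : 0 < a * L := Nat.mul_pos ha1 hL
  have hbN : 1600000 * (a * L) ≤ b * N := by
    calc 1600000 * (a * L) = (4 * a) * (400000 * L) := by ring
      _ ≤ b * N := Nat.mul_le_mul hb hN
  generalize a * L = X at *
  omega

lemma C113 {X : ℝ} (hX0 : 0 ≤ X) {t L a : ℕ} (hX : X ≤ 2 ^ L) (hLt : L * t ≤ a) :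
    X ^ t ≤ 2 ^ a := by
  calc X ^ t ≤ (2 ^ L) ^ t := pow_le_pow_left₀ hX0 hX t
    _ = 2 ^ (L * t) := (pow_mul _ _ _).symm
    _ ≤ 2 ^ a := pow_le_pow_right₀ (by norm_num) hLt

lemma C213 {X : ℝ} (hX0 : 0 ≤ X) {n t d L b N : ℕ} (hn : 0 < n) (hX : X ≤ 2 ^ L)
    (h4n : 4 * n ≤ 2 ^ L) (hk : 1 + L * d + L * t * 2 ^ t < b * N) :
    (X ^ t) ^ (2 ^ t) * ((1 / 2 : ℝ) ^ b) ^ N <
      (1 / 2) * (1 / (4 * (n : ℝ))) ^ d := by
  have hn0 : (0 : ℝ) < n := by exact_mod_cast hn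
  obtain ⟨M, hM⟩ : ∃ M, M = 2 ^ t := ⟨_, rfl⟩
  rw [← hM] at hk ⊢
  obtain ⟨A, hA⟩ : ∃ A, A = L * t * M := ⟨_, rfl⟩
  rw [← hA] at hk
  obtain ⟨E, hE⟩ : ∃ E, b * N = A + E := ⟨b * N - A, by omega⟩
  have hEk : 1 + L * d < E := by omega
  have h1 : (X ^ t) ^ M ≤ 2 ^ A := by
    calc (X ^ t) ^ M ≤ ((2 ^ L) ^ t) ^ M :=
          pow_le_pow_left₀ (by positivity) (pow_le_pow_left₀ hX0 hX t) M
      _ = 2 ^ A := by rw [← pow_mul, ← pow_mul, hA, mul_assoc]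
  have h3 : ((1 / 2 : ℝ) ^ b) ^ N = (1 / 2) ^ A * (1 / 2) ^ E := by
    rw [← pow_mul, hE, pow_add]
  have h4 : (2 : ℝ) ^ A * (1 / 2) ^ A = 1 := by
    rw [← mul_pow]
    norm_num
  have h5 : (1 / 2 : ℝ) ^ (1 + L * d) ≤ (1 / 2) * (1 / (4 * (n : ℝ))) ^ d := by
    rw [pow_add, pow_one, pow_mul]
    apply mul_le_mul_of_nonneg_left _ (by norm_num)
    apply pow_le_pow_left₀ (by positivity)
    rw [one_div_pow]
    apply one_div_le_one_div_of_le (by positivity)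
    exact_mod_cast h4n
  have h6 : (1 / 2 : ℝ) ^ E < (1 / 2) ^ (1 + L * d) :=
    pow_lt_pow_right_of_lt_one₀ (by norm_num) (by norm_num) hEk
  calc (X ^ t) ^ M * ((1 / 2 : ℝ) ^ b) ^ N
      ≤ 2 ^ A * ((1 / 2 : ℝ) ^ A * (1 / 2) ^ E) := by
        rw [h3]
        exact mul_le_mul_of_nonneg_right h1 (by positivity)
    _ = (1 / 2 : ℝ) ^ E := by rw [← mul_assoc, h4, one_mul]
    _ < (1 / 2) ^ (1 + L * d) := h6
    _ ≤ _ := h5

/-- The threshold on `log n`. -/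
noncomputable def Z13 : ℝ := C₃ ^ 768 * ((6404 / 1000 * 10 ^ 12) ^ 831)

lemma Z13_ge : 6 ≤ Z13 := by
  unfold Z13
  have h1 : 1 ≤ C₃ ^ 768 := one_le_pow₀ C₃_one
  have h2 : (6 : ℝ) ≤ (6404 / 1000 * 10 ^ 12 : ℝ) ^ 831 := by
    calc (6 : ℝ) ≤ (6404 / 1000 * 10 ^ 12 : ℝ) ^ 1 := by norm_num
      _ ≤ _ := pow_le_pow_right₀ (by norm_num) (by norm_num)
  exact le_trans h2 (le_mul_of_one_le_left (by positivity) h1)

/-- The last condition. -/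
lemma C313 {n t d L : ℕ} (hn8 : 8 ≤ n) (hdn : d ≤ n)
    (hLn : 2 ^ (L - 3) ≤ n) (hL64 : 64 ≤ L) (hm1 : 1 ≤ mstar2 d)
    (htW : (1601 / 1000 : ℝ) ^ t ≤ (1601 / 1000) * (10 ^ 12 * (2 * (L : ℝ))))
    (hZ : Z13 ≤ Real.log n) :
    (10 / 9) * (16000000 * (208 / 125) ^ t) * ((1 - 2 / (n : ℝ))⁻¹) ^ d * 2 ^ (efin2 d + 2) ≤
      (n : ℝ) * (Real.log n) ^ (13 / 12 : ℝ) := by
  have hl2a := Real.log_two_gt_d9
  have hl2b := Real.log_two_lt_d9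
  have hn0 : (0 : ℝ) < n := by
    have : 0 < n := by omega
    exact_mod_cast this
  obtain ⟨x, hx⟩ : ∃ x, x = Real.log n := ⟨_, rfl⟩
  rw [← hx] at hZ ⊢
  have hZ6 := Z13_ge
  have hx6 : 6 ≤ x := le_trans hZ6 hZ
  have hx0 : 0 < x := by linarith
  have hx1 : 1 ≤ x := by linarith
  -- `L ≤ 2 x`
  have hLx : (L : ℝ) ≤ 2 * x := by
    have h1 : ((2 : ℝ) ^ (L - 3)) ≤ n := by exact_mod_cast hLn
    have h2 := Real.log_le_log (by positivity) h1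
    rw [Real.log_pow, ← hx] at h2
    have h3 : (L : ℝ) = ((L - 3 : ℕ) : ℝ) + 3 := by
      have : L = (L - 3) + 3 := by omega
      exact_mod_cast this
    have ha : (0 : ℝ) ≤ ((L - 3 : ℕ) : ℝ) := Nat.cast_nonneg _
    nlinarith
  have hL0 : (0 : ℝ) ≤ L := Nat.cast_nonneg L
  set y : ℝ := x ^ (13 / 12 : ℝ) with hy
  have hy0 : 0 ≤ y := by rw [hy]; positivity
  have hy768 : y ^ 768 = x ^ 832 := by
    rw [hy, ← Real.rpow_natCast, ← Real.rpow_mul hx0.le, ← Real.rpow_natCast]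
    norm_num
  -- the main power bound
  have hmain : C₃ * (208 / 125) ^ t ≤ y := by
    have h5 : (C₃ * (208 / 125 : ℝ) ^ t) ^ 768 ≤ y ^ 768 := by
      have e1 : (C₃ * (208 / 125 : ℝ) ^ t) ^ 768 = C₃ ^ 768 * ((208 / 125 : ℝ) ^ 768) ^ t := by
        rw [mul_pow, ← pow_mul, ← pow_mul, mul_comm t 768]
      have e2 : ((208 / 125 : ℝ) ^ 768) ^ t ≤ ((1601 / 1000 : ℝ) ^ 831) ^ t :=
        pow_le_pow_left₀ (by positivity) (by norm_num) _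
      have e3 : ((1601 / 1000 : ℝ) ^ 831) ^ t = ((1601 / 1000 : ℝ) ^ t) ^ 831 := by
        rw [← pow_mul, ← pow_mul, mul_comm]
      have e4 : (1601 / 1000 : ℝ) ^ t ≤ (6404 / 1000 * 10 ^ 12) * x := by
        calc (1601 / 1000 : ℝ) ^ t ≤ (1601 / 1000) * (10 ^ 12 * (2 * (L : ℝ))) := htW
          _ ≤ (1601 / 1000) * (10 ^ 12 * (2 * (2 * x))) := by gcongr
          _ = _ := by ring
      have e5 : ((1601 / 1000 : ℝ) ^ t) ^ 831 ≤ ((6404 / 1000 * 10 ^ 12) * x) ^ 831 :=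
        pow_le_pow_left₀ (by positivity) e4 831
      have e6 : Z13 * x ^ 831 ≤ x * x ^ 831 :=
        mul_le_mul_of_nonneg_right hZ (by positivity)
      have e7 : x * x ^ 831 = y ^ 768 := by
        rw [hy768, ← pow_succ']
      have hC5 : 0 ≤ C₃ ^ 768 := pow_nonneg (le_trans zero_le_one C₃_one) _
      calc (C₃ * (208 / 125 : ℝ) ^ t) ^ 768 = C₃ ^ 768 * ((208 / 125 : ℝ) ^ 768) ^ t := e1
        _ ≤ C₃ ^ 768 * ((6404 / 1000 * 10 ^ 12) * x) ^ 831 :=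
            mul_le_mul_of_nonneg_left (e2.trans (e3.le.trans e5)) hC5
        _ = Z13 * x ^ 831 := by
            unfold Z13
            rw [mul_pow]
            ring
        _ ≤ x * x ^ 831 := e6
        _ = _ := e7
    exact (pow_le_pow_iff_left₀ (by have := C₃_one; positivity) hy0 (by norm_num)).1 h5
  -- the other factors
  have P2 := inv_pow_le n d hn8 hdn
  have heff := efin2_le d hm1
  have P3 : (2 : ℝ) ^ (efin2 d + 2) ≤ 2 ^ 28 * (mstar2 d : ℝ) := by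
    have : 2 ^ (efin2 d + 2) ≤ 2 ^ 28 * mstar2 d := by
      rw [pow_add]
      calc 2 ^ efin2 d * 2 ^ 2 ≤ (2 ^ 26 * mstar2 d) * 2 ^ 2 := Nat.mul_le_mul_right _ heff
        _ = 2 ^ 28 * mstar2 d := by ring
    exact_mod_cast this
  have hmn : (mstar2 d : ℝ) ≤ n := by
    have h1 : mstar2 d ≤ d := Nat.div_le_self _ _
    exact_mod_cast h1.trans hdn
  have hstep : (10 / 9) * (16000000 * (208 / 125) ^ t) * ((1 - 2 / (n : ℝ))⁻¹) ^ d *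
      2 ^ (efin2 d + 2) ≤ (mstar2 d : ℝ) * (C₃ * (208 / 125) ^ t) := by
    calc (10 / 9) * (16000000 * (208 / 125) ^ t) * ((1 - 2 / (n : ℝ))⁻¹) ^ d * 2 ^ (efin2 d + 2)
        ≤ (10 / 9) * (16000000 * (208 / 125) ^ t) * 2 ^ 7 * (2 ^ 28 * (mstar2 d : ℝ)) := by
          apply mul_le_mul (mul_le_mul_of_nonneg_left P2 (by positivity)) P3 (by positivity)
            (by positivity)
      _ = (mstar2 d : ℝ) * (C₃ * (208 / 125) ^ t) := by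
          unfold C₃
          ring
  calc _ ≤ (mstar2 d : ℝ) * (C₃ * (208 / 125) ^ t) := hstep
    _ ≤ (n : ℝ) * y := mul_le_mul hmn hmain (by have := C₃_one; positivity) hn0.le

end Params13Aux

open Vale.Agent.Lib.P230 Vale.Agent.Lib.P230.ParamsAux Vale.Agent.Lib.P230.Ball.ParamsBallAux
  Vale.Agent.Lib.P230.Lin.Params3Aux Params13Aux in
/-- MODULE SD (Params4.lean). -/
theorem params13 (d₀ t₀ : ℕ) : ∃ n₀ : ℕ, ∀ n ≥ n₀, ∃ d t : ℕ,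
    d + t = n ∧ 4 ≤ t ∧ t₀ ≤ t ∧ d₀ ≤ d ∧ 1000 ≤ n ∧
    ((2 * (12 * (t : ℝ) * (n : ℝ))) ^ t ≤ 2 ^ (mstar2 d / 16)) ∧
    (((2 * (12 * (t : ℝ) * (n : ℝ))) ^ t) ^ (2 ^ t) * ((1 / 2 : ℝ) ^ (mstar2 d / 4)) ^ ⌈(1601 / 1000 : ℝ) ^ t⌉₊ <
      (1 / 2) * (1 / (4 * (n : ℝ))) ^ d) ∧
    (1600000 * (t : ℝ) * ((400 * (t : ℝ) + 3) * 1660) ^ t ≤ Real.sqrt (Real.sqrt n)) ∧
    ((10 / 9) * (16000000 * (208 / 125) ^ t) * ((1 - 2 / (n : ℝ))⁻¹) ^ d * 2 ^ (efin2 d + 2) ≤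
      (n : ℝ) * (Real.log n) ^ (13 / 12 : ℝ)) := by
  classical
  have e1 : Tendsto (fun n : ℕ => Real.log n) atTop atTop :=
    Real.tendsto_log_atTop.comp tendsto_natCast_atTop_atTop
  obtain ⟨a, ha⟩ := eventually_atTop.1 (e1.eventually_ge_atTop Z13)
  obtain ⟨s₁, hs₁⟩ : ∃ s₁ : ℕ, s₁ = 50 + t₀ := ⟨_, rfl⟩
  have hs₁7 : 7 ≤ s₁ := by omega
  refine ⟨2 ^ (2 ^ s₁) + 2 * d₀ + a + 2 ^ 64, fun n hn => ?_⟩
  have hn1 : 2 ^ (2 ^ s₁) ≤ n := by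
    generalize 2 ^ (2 ^ s₁) = A at hn ⊢
    omega
  have hn2 : 2 * d₀ ≤ n := by
    generalize 2 ^ (2 ^ s₁) = A at hn
    omega
  have hna : a ≤ n := by
    generalize 2 ^ (2 ^ s₁) = A at hn
    omega
  have hn3 : 2 ^ 64 ≤ n := by
    generalize 2 ^ (2 ^ s₁) = A at hn
    omega
  have hn1000 : 1000 ≤ n := le_trans (by norm_num) hn3
  have hz := ha n hna
  obtain ⟨L, s, h4n, hLs, hss, hL64, hLn, hsL, hsL'⟩ := scale_facts hs₁7 hn1
  have hs50 : 50 ≤ s := by omega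
  have h2pow : 2 ^ (s - 2) ≤ L := le_trans hsL (Nat.sub_le _ _)
  have hL200 : 200 ≤ L := by
    have h1 : 2 ^ 48 ≤ 2 ^ (s - 2) := Nat.pow_le_pow_right (by norm_num) (by omega)
    have h2 : (200 : ℕ) ≤ 2 ^ 48 := by norm_num
    omega
  have hL1 : (1 : ℝ) ≤ L := by
    have : 1 ≤ L := by omega
    exact_mod_cast this
  -- the choice of `t`
  have hex : ∃ t : ℕ, (10 : ℝ) ^ 12 * (2 * (L : ℝ)) ≤ (1601 / 1000 : ℝ) ^ t := by
    obtain ⟨t, ht⟩ := pow_unbounded_of_one_lt ((10 : ℝ) ^ 12 * (2 * (L : ℝ)))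
      (by norm_num : (1 : ℝ) < 1601 / 1000)
    exact ⟨t, ht.le⟩
  obtain ⟨t, ht⟩ : ∃ t, t = Nat.find hex := ⟨_, rfl⟩
  have htspec : (10 : ℝ) ^ 12 * (2 * (L : ℝ)) ≤ (1601 / 1000 : ℝ) ^ t := by
    rw [ht]
    exact Nat.find_spec hex
  have hLreal : (2 : ℝ) ^ (s - 2) ≤ (L : ℝ) := by exact_mod_cast h2pow
  have hts1 : s - 1 ≤ t := by
    by_contra hcon
    have h3 : t ≤ s - 2 := by omega
    have h4 : (1601 / 1000 : ℝ) ^ t ≤ (1601 / 1000 : ℝ) ^ (s - 2) :=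
      pow_le_pow_right₀ (by norm_num) h3
    have h5 : (1601 / 1000 : ℝ) ^ (s - 2) ≤ (2 : ℝ) ^ (s - 2) :=
      pow_le_pow_left₀ (by norm_num) (by norm_num) _
    have h6 : (L : ℝ) < (10 : ℝ) ^ 12 * (2 * (L : ℝ)) := by
      nlinarith
    linarith
  have ht4 : 4 ≤ t := by omega
  have htt₀ : t₀ ≤ t := by omega
  -- upper bound by minimality
  have htW : (1601 / 1000 : ℝ) ^ t ≤ (1601 / 1000) * (10 ^ 12 * (2 * (L : ℝ))) := by
    have h1 : t - 1 < Nat.find hex := by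
      rw [← ht]
      omega
    have h2 := Nat.find_min hex h1
    push Not at h2
    have e : (1601 / 1000 : ℝ) ^ t = (1601 / 1000) ^ (t - 1) * (1601 / 1000) := by
      rw [← pow_succ]
      congr 1
      omega
    rw [e]
    nlinarith
  -- `t ≤ 3 s + 53`
  have hts : t ≤ 3 * s + 53 := by
    rw [ht]
    apply Nat.find_min' hex
    have h2s : (L : ℝ) ≤ 2 ^ s := by exact_mod_cast hLs
    have h3 : (2 : ℝ) ^ s ≤ ((1601 / 1000 : ℝ) ^ 2) ^ s :=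
      pow_le_pow_left₀ (by norm_num) (by norm_num) s
    have h4 : (10 : ℝ) ^ 12 * 2 ≤ (1601 / 1000 : ℝ) ^ (s + 53) := by
      have h100 : (10 : ℝ) ^ 12 * 2 ≤ (1601 / 1000 : ℝ) ^ 103 := by norm_num
      exact h100.trans (pow_le_pow_right₀ (by norm_num) (by omega))
    calc (10 : ℝ) ^ 12 * (2 * (L : ℝ)) = ((10 : ℝ) ^ 12 * 2) * (L : ℝ) := by ring
      _ ≤ (1601 / 1000 : ℝ) ^ (s + 53) * ((1601 / 1000 : ℝ) ^ 2) ^ s :=
          mul_le_mul h4 (h2s.trans h3) (by positivity) (by positivity)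
      _ = (1601 / 1000 : ℝ) ^ (3 * s + 53) := by
          rw [← pow_mul, ← pow_add]
          congr 1
          ring
  have ht1 : 1 ≤ t := by omega
  have htL : t ≤ 3 * L + 53 := by omega
  -- size of `2 ^ t`
  have h2t : 2 ^ t ≤ 2 ^ 59 * L ^ 3 := by
    have h2s : 2 ^ s ≤ 4 * L := by
      have e : 2 ^ s = 4 * 2 ^ (s - 2) := by
        conv_lhs => rw [show s = (s - 2) + 2 by omega, pow_add]
        ring
      omega
    calc 2 ^ t ≤ 2 ^ (3 * s + 53) := Nat.pow_le_pow_right (by norm_num) hts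
      _ = (2 ^ s) ^ 3 * 2 ^ 53 := by rw [pow_add, ← pow_mul, mul_comm s 3]
      _ ≤ (4 * L) ^ 3 * 2 ^ 53 := Nat.mul_le_mul_right _ (Nat.pow_le_pow_left h2s 3)
      _ = 2 ^ 59 * L ^ 3 := by ring
  have h2t' : 2 ^ t ≤ 2 ^ 59 * (2 * L) ^ 3 :=
    le_trans h2t (Nat.mul_le_mul_left _ (Nat.pow_le_pow_left (by omega) 3))
  -- dimension
  have hbigL := bigL13 L hL200
  have hLcube : 2 ^ 90 * (L ^ 3 * t) ≤ n := by
    have h1 : L ^ 3 * t ≤ L ^ 3 * (3 * L + 53) := Nat.mul_le_mul_left _ htL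
    calc 2 ^ 90 * (L ^ 3 * t) ≤ 2 ^ 90 * (L ^ 3 * (3 * L + 53)) := Nat.mul_le_mul_left _ h1
      _ ≤ 2 ^ (L - 3) := hbigL
      _ ≤ n := hLn
  have hX : 1 ≤ L ^ 3 * t := Nat.mul_pos (Nat.pow_pos (by omega)) (by omega)
  have htX : t ≤ L ^ 3 * t := Nat.le_mul_of_pos_left _ (Nat.pow_pos (by omega))
  have ht2 : t ≤ n := by
    generalize L ^ 3 * t = X at *
    omega
  obtain ⟨d, hdt⟩ : ∃ d, d + t = n := ⟨n - t, by omega⟩
  have hdbig : 320000 * (2 ^ 59 * (2 * L) ^ 3 * t) ≤ d := by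
    have e : 320000 * (2 ^ 59 * (2 * L) ^ 3 * t) = (320000 * 2 ^ 62) * (L ^ 3 * t) := by ring
    rw [e]
    generalize L ^ 3 * t = X at *
    norm_num at hLcube ⊢
    omega
  have hdn : d ≤ n := by omega
  -- the number of leaves
  have hN : 400000 * (2 * L) ≤ ⌈(1601 / 1000 : ℝ) ^ t⌉₊ := by
    have h1 : (1601 / 1000 : ℝ) ^ t ≤ (⌈(1601 / 1000 : ℝ) ^ t⌉₊ : ℝ) := Nat.le_ceil _
    have h2 : ((400000 * (2 * L) : ℕ) : ℝ) ≤ (⌈(1601 / 1000 : ℝ) ^ t⌉₊ : ℝ) := by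
      push_cast
      nlinarith
    exact_mod_cast h2
  obtain ⟨hLt_a, hk, hm1⟩ := arith13 hdbig (by omega) ht1 h2t' hN
  -- the base
  have h6t : 6 * t ≤ 2 ^ L := by
    have hp : 1 ≤ L ^ 3 := Nat.pow_pos (by omega)
    calc 6 * t ≤ 6 * (3 * L + 53) := Nat.mul_le_mul_left _ htL
      _ ≤ 2 ^ 90 * (3 * L + 53) := Nat.mul_le_mul_right _ (by norm_num)
      _ ≤ 2 ^ 90 * (L ^ 3 * (3 * L + 53)) :=
          Nat.mul_le_mul_left _ (Nat.le_mul_of_pos_left _ hp)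
      _ ≤ 2 ^ (L - 3) := hbigL
      _ ≤ 2 ^ L := Nat.pow_le_pow_right (by norm_num) (Nat.sub_le _ _)
  have hXb : (2 * (12 * (t : ℝ) * (n : ℝ))) ≤ 2 ^ (2 * L) := by
    have h1 : (6 * (t : ℝ)) ≤ 2 ^ L := by exact_mod_cast h6t
    have h2 : (4 * (n : ℝ)) ≤ 2 ^ L := by exact_mod_cast h4n
    calc (2 * (12 * (t : ℝ) * (n : ℝ))) = (6 * (t : ℝ)) * (4 * (n : ℝ)) := by ring
      _ ≤ 2 ^ L * 2 ^ L := mul_le_mul h1 h2 (by positivity) (by positivity)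
      _ = 2 ^ (2 * L) := by rw [two_mul, pow_add]
  have hX0 : (0 : ℝ) ≤ 2 * (12 * (t : ℝ) * (n : ℝ)) := by positivity
  have h4n' : 4 * n ≤ 2 ^ (2 * L) :=
    h4n.trans (Nat.pow_le_pow_right (by norm_num) (by omega))
  refine ⟨d, t, hdt, ht4, htt₀, by omega, hn1000, C113 hX0 hXb hLt_a, ?_, ?_, ?_⟩
  · exact C213 hX0 (by omega) hXb h4n' hk
  · exact C4ball ht1 hts hs50 (by omega) (by omega) hLn hsL
  · exact C313 (by omega) hdn hLn hL64 hm1 htW hz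

end Vale.Agent.Lib.P230.Skew13
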